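import Vale.Agent.P299.H863.IdxP
import Mathlib.Analysis.InnerProductSpace.Projection.Basic
import Mathlib.Analysis.InnerProductSpace.Projection.FiniteDimensional
import Mathlib.LinearAlgebra.Dimension.Finite

/-! # P284, package AB (helper924): the abstract index type lemma

`D` symmetric on a pre-Hilbert space, `P₀, P₁, P₂` mutually orthogonal projections; an a priori
estimate with `N` conditions in degree `1` and a space `W` of vectors of small energy in degree `0`
give a space of dimension `≥ dim W - N` of solutions of `D u = 0` in degree `0`. -/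

namespace Vale.Agent.P284.H924

open Filter Topology Module UniformSpace
open scoped InnerProductSpace
open Vale.Agent.P299.H863

noncomputable section

variable {S : Type*} [NormedAddCommGroup S] [InnerProductSpace ℂ S]

/-- the embedding into the completion -/
def ι (S : Type*) [NormedAddCommGroup S] [InnerProductSpace ℂ S] : S →ₗ[ℂ] Completion S :=
  (Completion.toComplL (𝕜 := ℂ) (E := S) : S →L[ℂ] Completion S)

theorem ι_apply (s : S) : ι S s = (s : Completion S) := rfl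

/-- closure of the image of a submodule in the completion -/
def cls (T : Submodule ℂ S) : Submodule ℂ (Completion S) := (T.map (ι S)).topologicalClosure

theorem cls_complete (T : Submodule ℂ S) : CompleteSpace (cls T) :=
  Submodule.topologicalClosure.completeSpace _

theorem coe_mem_cls {T : Submodule ℂ S} {s : S} (hs : s ∈ T) : (s : Completion S) ∈ cls T :=
  Submodule.le_topologicalClosure _ ⟨s, hs, rfl⟩

/-- closure induction -/
theorem cls_induction {T : Submodule ℂ S} {p : Completion S → Prop} (hp : IsClosed {x | p x})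
    (h : ∀ s ∈ T, p (s : Completion S)) {x : Completion S} (hx : x ∈ cls T) : p x := by
  have h1 : (cls T : Set (Completion S)) ⊆ {x | p x} := by
    unfold cls
    rw [Submodule.topologicalClosure_coe]
    refine closure_minimal ?_ hp
    rintro _ ⟨s, hs, rfl⟩
    exact h s hs
  exact h1 hx

theorem cls_mono {T T' : Submodule ℂ S} (h : T ≤ T') : cls T ≤ cls T' :=
  Submodule.topologicalClosure_mono (Submodule.map_mono h)

theorem exists_approx {T : Submodule ℂ S} {x : Completion S} (hx : x ∈ cls T) {ε : ℝ} (hε : 0 < ε) :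
    ∃ s ∈ T, ‖(s : Completion S) - x‖ < ε := by
  have h1 : x ∈ closure ((T.map (ι S) : Submodule ℂ (Completion S)) : Set (Completion S)) := by
    have := hx
    unfold cls at this
    rwa [← SetLike.mem_coe, Submodule.topologicalClosure_coe] at this
  obtain ⟨_, ⟨s, hs, rfl⟩, h2⟩ := Metric.mem_closure_iff.1 h1 ε hε
  refine ⟨s, hs, ?_⟩
  rw [dist_comm, dist_eq_norm] at h2
  exact h2

theorem inner_proj {P : S →ₗ[ℂ] S} (hP : OProj ℂ P) {x : Completion S} (hx : x ∈ cls (fixP P))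
    (w : S) : inner ℂ (w : Completion S) x = inner ℂ ((P w : S) : Completion S) x := by
  refine cls_induction (p := fun x => inner ℂ (w : Completion S) x =
    inner ℂ ((P w : S) : Completion S) x) (isClosed_eq (by fun_prop) (by fun_prop)) ?_ hx
  intro s hs
  rw [Completion.inner_coe, Completion.inner_coe, hP.symm, mem_fixP.1 hs]

/-- approximation of an element of the closure of the image of `P` -/
theorem approx_proj {P : S →ₗ[ℂ] S} (hP : OProj ℂ P) {x : Completion S} (hx : x ∈ cls (fixP P))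
    (w : S) : ‖((P w : S) : Completion S) - x‖ ≤ ‖(w : Completion S) - x‖ := by
  refine le_of_forall_pos_le_add fun δ hδ => ?_
  obtain ⟨s, hs, hs1⟩ := exists_approx hx (ε := δ / 2) (by positivity)
  have h1 : ((P w : S) : Completion S) - x = ((P (w - s) : S) : Completion S) + ((s : Completion S) - x) := by
    rw [map_sub, mem_fixP.1 hs, Completion.coe_sub]; abel
  have h2 : ‖((P (w - s) : S) : Completion S)‖ ≤ ‖(w : Completion S) - x‖ + δ / 2 := by
    rw [Completion.norm_coe]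
    refine (hP.norm_le _).trans ?_
    rw [← Completion.norm_coe, Completion.coe_sub]
    calc ‖(w : Completion S) - s‖ = ‖((w : Completion S) - x) - ((s : Completion S) - x)‖ := by
          congr 1; abel
      _ ≤ ‖(w : Completion S) - x‖ + ‖(s : Completion S) - x‖ := norm_sub_le _ _
      _ ≤ _ := by linarith
  rw [h1]
  refine (norm_add_le _ _).trans ?_
  linarith

/-- a projection orthogonal to `P` is small near the closure of the image of `P` -/
theorem approx_zero {P Q : S →ₗ[ℂ] S} (hQ : OProj ℂ Q) (h0 : ∀ u, Q (P u) = 0)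
    {x : Completion S} (hx : x ∈ cls (fixP P)) (w : S) :
    ‖Q w‖ ≤ ‖(w : Completion S) - x‖ := by
  refine le_of_forall_pos_le_add fun δ hδ => ?_
  obtain ⟨s, hs, hs1⟩ := exists_approx hx (ε := δ) (by positivity)
  have h1 : Q w = Q (w - s) := by
    have : Q s = 0 := by rw [← mem_fixP.1 hs, h0]
    rw [map_sub, this, sub_zero]
  rw [h1]
  refine (hQ.norm_le _).trans ?_
  rw [← Completion.norm_coe, Completion.coe_sub]
  calc ‖(w : Completion S) - s‖ = ‖((w : Completion S) - x) - ((s : Completion S) - x)‖ := by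
        congr 1; abel
    _ ≤ ‖(w : Completion S) - x‖ + ‖(s : Completion S) - x‖ := norm_sub_le _ _
    _ ≤ _ := by linarith

/-- the algebraic hypotheses -/
structure AH (D P₀ P₁ P₂ : S →ₗ[ℂ] S) : Prop where
  symm : ∀ u v, inner ℂ (D u) v = inner ℂ u (D v)
  p0 : OProj ℂ P₀
  p1 : OProj ℂ P₁
  p2 : OProj ℂ P₂
  p01 : ∀ u, P₀ (P₁ u) = 0
  p02 : ∀ u, P₀ (P₂ u) = 0
  p12 : ∀ u, P₁ (P₂ u) = 0
  d0 : ∀ u, P₁ (D (P₀ u)) = D (P₀ u)
  d1 : ∀ u, P₀ (D (P₁ u)) + P₂ (D (P₁ u)) = D (P₁ u)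
  dd : ∀ u, P₂ (D (D (P₀ u))) = 0
  dd1 : ∀ u, P₁ (D (P₂ (D (P₁ u)))) = D (P₂ (D (P₁ u)))

namespace AH

variable {D P₀ P₁ P₂ : S →ₗ[ℂ] S} (h : AH D P₀ P₁ P₂)

include h

theorem p20 (u : S) : P₂ (P₀ u) = 0 := by
  refine ext_inner_right ℂ fun x => ?_
  rw [h.p2.symm, h.p0.symm, h.p02, inner_zero_right, inner_zero_left]

theorem P0D (u : S) : P₀ (D u) = P₀ (D (P₁ u)) := by
  refine ext_inner_right ℂ fun x => ?_
  rw [h.p0.symm, h.symm, ← h.d0, ← h.p1.symm, ← h.symm, ← h.p0.symm]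

theorem P1D (u : S) : P₁ (D u) = D (P₀ u) + P₁ (D (P₂ u)) := by
  refine ext_inner_right ℂ fun x => ?_
  rw [h.p1.symm, h.symm, ← h.d1, inner_add_right, inner_add_left, ← h.p0.symm, ← h.p2.symm,
    ← h.symm, ← h.symm, ← h.p1.symm, ← h.p1.symm, h.d0]

theorem orth1 (u v : S) : inner ℂ (D (P₀ u)) (P₁ (D (P₂ v))) = 0 := by
  rw [← h.p1.symm, h.d0, ← h.symm, ← h.p2.symm, h.dd, inner_zero_left]

theorem norm_DP0 (u : S) : ‖D (P₀ u)‖ ≤ ‖D u‖ := by
  have h1 : inner ℂ (D (P₀ u)) (D (P₀ u)) = inner ℂ (D (P₀ u)) (P₁ (D u)) := by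
    rw [h.P1D, inner_add_right, h.orth1, add_zero]
  have h2 : ‖D (P₀ u)‖ * ‖D (P₀ u)‖ ≤ ‖D (P₀ u)‖ * ‖D u‖ := by
    calc ‖D (P₀ u)‖ * ‖D (P₀ u)‖ = ‖inner ℂ (D (P₀ u)) (D (P₀ u))‖ := by
          rw [inner_self_eq_norm_sq_to_K, norm_pow, RCLike.norm_ofReal, abs_norm, sq]
      _ = ‖inner ℂ (D (P₀ u)) (P₁ (D u))‖ := by rw [h1]
      _ ≤ ‖D (P₀ u)‖ * ‖P₁ (D u)‖ := norm_inner_le_norm _ _
      _ ≤ ‖D (P₀ u)‖ * ‖D u‖ := by gcongr; exact h.p1.norm_le _
  by_cases h0 : ‖D (P₀ u)‖ = 0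
  · rw [h0]; positivity
  · exact le_of_mul_le_mul_left h2 (lt_of_le_of_ne (norm_nonneg _) (Ne.symm h0))

theorem norm_P2DP1 (u : S) : ‖P₂ (D (P₁ u))‖ ≤ ‖P₂ (D u)‖ := by
  have h0 : inner ℂ (P₂ (D (P₁ u))) (P₂ (D u) - P₂ (D (P₁ u))) = 0 := by
    rw [← map_sub, ← map_sub, ← h.p2.symm, h.p2.idem, ← h.symm, ← h.dd1, h.p1.symm, map_sub,
      h.p1.idem, sub_self, inner_zero_right]
  have h1 : inner ℂ (P₂ (D (P₁ u))) (P₂ (D (P₁ u))) = inner ℂ (P₂ (D (P₁ u))) (P₂ (D u)) := by
    rw [inner_sub_right, sub_eq_zero] at h0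
    exact h0.symm
  have h2 : ‖P₂ (D (P₁ u))‖ * ‖P₂ (D (P₁ u))‖ ≤ ‖P₂ (D (P₁ u))‖ * ‖P₂ (D u)‖ := by
    calc ‖P₂ (D (P₁ u))‖ * ‖P₂ (D (P₁ u))‖ = ‖inner ℂ (P₂ (D (P₁ u))) (P₂ (D (P₁ u)))‖ := by
          rw [inner_self_eq_norm_sq_to_K, norm_pow, RCLike.norm_ofReal, abs_norm, sq]
      _ = ‖inner ℂ (P₂ (D (P₁ u))) (P₂ (D u))‖ := by rw [h1]
      _ ≤ ‖P₂ (D (P₁ u))‖ * ‖P₂ (D u)‖ := norm_inner_le_norm _ _
  by_cases h3 : ‖P₂ (D (P₁ u))‖ = 0
  · rw [h3]; positivity
  · exact le_of_mul_le_mul_left h2 (lt_of_le_of_ne (norm_nonneg _) (Ne.symm h3))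

/-- an element of the closure of `S₀` orthogonal to `P₀ D S₁` is a smooth solution of `D u = 0` -/
theorem weak_zero {J : ℕ → S →ₗ[ℂ] S} (hJ : Smoothing ℂ J) (hc : SmoothingComm D J J)
    (hreg : ∀ w : ℕ → S, (∀ n, P₀ (w n) = w n) → CauchySeq w →
      Tendsto (fun n => D (w n)) atTop (𝓝 0) → ∃ s, Tendsto w atTop (𝓝 s))
    {x : Completion S} (hx : x ∈ cls (fixP P₀))
    (hw : ∀ v, P₁ v = v → inner ℂ ((P₀ (D v) : S) : Completion S) x = 0) :
    ∃ s : S, P₀ s = s ∧ D s = 0 ∧ (s : Completion S) = x := by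
  have hweak : ∀ u : S, inner ℂ ((D u : S) : Completion S) x
      = inner ℂ (u : Completion S) (0 : Completion S) := by
    intro u
    rw [inner_proj h.p0 hx, h.P0D, hw _ (h.p1.idem u), inner_zero_right]
  have hex : ∀ k : ℕ, ∃ w : S, P₀ w = w ∧ ‖(w : Completion S) - x‖ ≤ 1 / ((k : ℝ) + 1) ∧
      ‖D w‖ ≤ 1 / ((k : ℝ) + 1) := by
    intro k
    obtain ⟨w, h1, h2⟩ := weak_eq_strong h.symm hJ hJ hc x 0 hweak
      (ε := 1 / ((k : ℝ) + 1)) (by positivity)
    rw [sub_zero, Completion.norm_coe] at h2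
    exact ⟨P₀ w, h.p0.idem w, (approx_proj h.p0 hx w).trans h1, (h.norm_DP0 w).trans h2⟩
  choose w hw0 hw1 hw2 using hex
  have hlim0 : Tendsto (fun k : ℕ => 1 / ((k : ℝ) + 1)) atTop (𝓝 0) :=
    tendsto_one_div_add_atTop_nhds_zero_nat
  have t1 : Tendsto (fun k => ((w k : S) : Completion S)) atTop (𝓝 x) := by
    rw [tendsto_iff_norm_sub_tendsto_zero]
    exact squeeze_zero (fun _ => norm_nonneg _) hw1 hlim0
  have t2 : Tendsto (fun k => D (w k)) atTop (𝓝 0) := by
    rw [tendsto_zero_iff_norm_tendsto_zero]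
    exact squeeze_zero (fun _ => norm_nonneg _) hw2 hlim0
  have t3 : CauchySeq w := by
    have := t1.cauchySeq
    rw [Metric.cauchySeq_iff] at this ⊢
    intro ε hε
    obtain ⟨N, hN⟩ := this ε hε
    exact ⟨N, fun m hm n hn => by simpa [Completion.dist_eq] using hN m hm n hn⟩
  obtain ⟨s, hs⟩ := hreg w hw0 t3 t2
  have t4 : Tendsto (fun k => ((w k : S) : Completion S)) atTop (𝓝 (s : Completion S)) :=
    (Completion.continuous_coe S).continuousAt.tendsto.comp hs
  refine ⟨s, h.p0.fix_of_tendsto hs hw0, ?_, tendsto_nhds_unique t4 t1⟩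
  refine ext_inner_right ℂ fun v => ?_
  rw [h.symm, inner_zero_left]
  have t5 : Tendsto (fun k => inner ℂ (w k) (D v)) atTop (𝓝 (inner ℂ s (D v))) :=
    hs.inner tendsto_const_nhds
  have t6 : Tendsto (fun k => inner ℂ (D (w k)) v) atTop (𝓝 (inner ℂ (0 : S) v)) :=
    t2.inner tendsto_const_nhds
  rw [inner_zero_left] at t6
  refine tendsto_nhds_unique t5 (t6.congr fun k => ?_)
  rw [h.symm]

/-- the image of `P₀ D` on `S₁` is dense in the orthogonal complement of the kernel -/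
theorem mem_of_orth {J : ℕ → S →ₗ[ℂ] S} (hJ : Smoothing ℂ J) (hc : SmoothingComm D J J)
    (hreg : ∀ w : ℕ → S, (∀ n, P₀ (w n) = w n) → CauchySeq w →
      Tendsto (fun n => D (w n)) atTop (𝓝 0) → ∃ s, Tendsto w atTop (𝓝 s))
    {f : S} (hf : P₀ f = f) (hZ : ∀ z, P₀ z = z → D z = 0 → inner ℂ z f = 0) :
    (f : Completion S) ∈ cls ((fixP P₁).map (P₀ ∘ₗ D)) := by
  set T := cls ((fixP P₁).map (P₀ ∘ₗ D)) with hT
  have : CompleteSpace T := cls_complete _
  have hTle : T ≤ cls (fixP P₀) := by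
    refine cls_mono ?_
    rintro _ ⟨v, _, rfl⟩
    exact h.p0.idem _
  set g := T.starProjection (f : Completion S) with hg
  have hgT : g ∈ T := Submodule.starProjection_apply_mem _ _
  set x := (f : Completion S) - g with hx
  have hxc : x ∈ cls (fixP P₀) := Submodule.sub_mem _ (coe_mem_cls hf) (hTle hgT)
  have horth : ∀ y ∈ T, inner ℂ x y = 0 := fun y hy => Submodule.starProjection_inner_eq_zero _ y hy
  obtain ⟨s, hs1, hs2, hs3⟩ := h.weak_zero hJ hc hreg hxc (by
    intro v hv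
    have h1 := horth ((P₀ (D v) : S) : Completion S) (coe_mem_cls ⟨v, hv, rfl⟩)
    rw [← inner_conj_symm, h1, map_zero])
  have h1 : inner ℂ x (f : Completion S) = 0 := by
    rw [← hs3, Completion.inner_coe, hZ s hs1 hs2]
  have h2 : inner ℂ x x = 0 := by
    have h3 := horth g hgT
    calc inner ℂ x x = inner ℂ x (f : Completion S) - inner ℂ x g := by
          rw [← inner_sub_right]
      _ = 0 := by rw [h1, h3, sub_zero]
  rw [inner_self_eq_zero] at h2
  have h3 : (f : Completion S) = g := by rw [← sub_eq_zero]; exact h2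
  rw [h3]
  exact hgT

end AH

/-- the graph of the (weak) solution operator -/
def gr (D P₀ : S →ₗ[ℂ] S) : Submodule ℂ (Completion S × Completion S) where
  carrier := {x | x.1 ∈ cls ((fixP P₀).map D) ∧ x.2 ∈ cls (fixP P₀) ∧
    ∀ φ : S, inner ℂ ((D φ : S) : Completion S) x.1 = inner ℂ (φ : Completion S) x.2}
  add_mem' := by
    rintro a b ⟨a1, a2, a3⟩ ⟨b1, b2, b3⟩
    refine ⟨Submodule.add_mem _ a1 b1, Submodule.add_mem _ a2 b2, fun φ => ?_⟩
    rw [Prod.fst_add, Prod.snd_add, inner_add_right, inner_add_right, a3, b3]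
  zero_mem' := by
    refine ⟨Submodule.zero_mem _, Submodule.zero_mem _, fun φ => ?_⟩
    rw [Prod.fst_zero, Prod.snd_zero, inner_zero_right, inner_zero_right]
  smul_mem' := by
    rintro c a ⟨a1, a2, a3⟩
    refine ⟨Submodule.smul_mem _ c a1, Submodule.smul_mem _ c a2, fun φ => ?_⟩
    rw [Prod.smul_fst, Prod.smul_snd, inner_smul_right, inner_smul_right, a3]

theorem gr_closed (D P₀ : S →ₗ[ℂ] S) :
    IsClosed ((gr D P₀ : Submodule ℂ _) : Set (Completion S × Completion S)) := by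
  have h1 : IsClosed {x : Completion S × Completion S | x.1 ∈ cls ((fixP P₀).map D)} :=
    (Submodule.isClosed_topologicalClosure _).preimage continuous_fst
  have h2 : IsClosed {x : Completion S × Completion S | x.2 ∈ cls (fixP P₀)} :=
    (Submodule.isClosed_topologicalClosure _).preimage continuous_snd
  have h3 : IsClosed {x : Completion S × Completion S | ∀ φ : S,
      inner ℂ ((D φ : S) : Completion S) x.1 = inner ℂ (φ : Completion S) x.2} := by
    rw [Set.ofPred_forall]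
    exact isClosed_iInter fun φ => isClosed_eq (by fun_prop) (by fun_prop)
  exact h1.inter (h2.inter h3)

namespace AH

variable {D P₀ P₁ P₂ : S →ₗ[ℂ] S} (h : AH D P₀ P₁ P₂)

include h

theorem cls_D0 : cls ((fixP P₀).map D) ≤ cls (fixP P₁) := by
  refine cls_mono ?_
  rintro _ ⟨v, hv, rfl⟩
  have := h.d0 v
  rw [mem_fixP.1 hv] at this
  exact this

/-- every `P₀ D v`, `v ∈ S₁`, is in the range -/
theorem exists_gr {v : S} : ∃ x ∈ gr D P₀, x.2 = ((P₀ (D v) : S) : Completion S) := by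
  set R := cls ((fixP P₀).map D) with hR
  have : CompleteSpace R := cls_complete _
  refine ⟨(R.starProjection (v : Completion S), ((P₀ (D v) : S) : Completion S)),
    ⟨Submodule.starProjection_apply_mem _ _, coe_mem_cls (h.p0.idem _), fun φ => ?_⟩, rfl⟩
  set g := R.starProjection (v : Completion S) with hg
  have hgR : g ∈ R := Submodule.starProjection_apply_mem _ _
  show inner ℂ ((D φ : S) : Completion S) g
    = inner ℂ (φ : Completion S) ((P₀ (D v) : S) : Completion S)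
  have e1 : inner ℂ ((D φ : S) : Completion S) g = inner ℂ ((D (P₀ φ) : S) : Completion S) g := by
    rw [inner_proj h.p1 (h.cls_D0 hgR), h.P1D, Completion.coe_add, inner_add_left]
    have e2 : inner ℂ ((P₁ (D (P₂ φ)) : S) : Completion S) g = 0 := by
      refine cls_induction (p := fun y => inner ℂ ((P₁ (D (P₂ φ)) : S) : Completion S) y = 0)
        (isClosed_eq (by fun_prop) continuous_const) ?_ hgR
      rintro _ ⟨u, hu, rfl⟩
      rw [Completion.inner_coe, ← inner_conj_symm]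
      have := h.orth1 u φ
      rw [mem_fixP.1 hu] at this
      rw [this, map_zero]
    rw [e2, add_zero]
  rw [e1]
  have e3 : inner ℂ ((D (P₀ φ) : S) : Completion S) ((v : Completion S) - g) = 0 := by
    rw [← inner_conj_symm, hg, Submodule.starProjection_inner_eq_zero, map_zero]
    exact coe_mem_cls ⟨P₀ φ, h.p0.idem φ, rfl⟩
  rw [inner_sub_right, sub_eq_zero] at e3
  rw [← e3, Completion.inner_coe, Completion.inner_coe, h.symm, h.p0.symm]

/-- strong approximation of the elements of the graph -/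
theorem gr_approx {J : ℕ → S →ₗ[ℂ] S} (hJ : Smoothing ℂ J) (hc : SmoothingComm D J J)
    {x : Completion S × Completion S} (hx : x ∈ gr D P₀) :
    ∃ w : ℕ → S, (∀ k, P₁ (w k) = w k) ∧
      Tendsto (fun k => ((w k : S) : Completion S)) atTop (𝓝 x.1) ∧
      Tendsto (fun k => ((D (w k) : S) : Completion S)) atTop (𝓝 x.2) := by
  obtain ⟨x1, x2, x3⟩ := hx
  have hex : ∀ k : ℕ, ∃ w : S, P₁ w = w ∧ ‖(w : Completion S) - x.1‖ ≤ 1 / ((k : ℝ) + 1) ∧
      ‖((D w : S) : Completion S) - x.2‖ ≤ 2 * (1 / ((k : ℝ) + 1)) := by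
    intro k
    obtain ⟨w, h1, h2⟩ := weak_eq_strong h.symm hJ hJ hc x.1 x.2 x3
      (ε := 1 / ((k : ℝ) + 1)) (by positivity)
    refine ⟨P₁ w, h.p1.idem w, (approx_proj h.p1 (h.cls_D0 x1) w).trans h1, ?_⟩
    have h3 := approx_proj h.p0 x2 (D w)
    have h4 := approx_zero h.p2 h.p20 x2 (D w)
    have h5 : ((D (P₁ w) : S) : Completion S) - x.2
        = (((P₀ (D w) : S) : Completion S) - x.2) + ((P₂ (D (P₁ w)) : S) : Completion S) := by
      have e : D (P₁ w) = P₀ (D w) + P₂ (D (P₁ w)) := by rw [h.P0D]; exact (h.d1 w).symm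
      calc ((D (P₁ w) : S) : Completion S) - x.2
          = ((P₀ (D w) + P₂ (D (P₁ w)) : S) : Completion S) - x.2 := by rw [← e]
        _ = _ := by rw [Completion.coe_add]; abel
    rw [h5]
    refine (norm_add_le _ _).trans ?_
    rw [Completion.norm_coe]
    have h6 := h.norm_P2DP1 w
    linarith
  choose w hw0 hw1 hw2 using hex
  have hlim0 : Tendsto (fun k : ℕ => 1 / ((k : ℝ) + 1)) atTop (𝓝 0) :=
    tendsto_one_div_add_atTop_nhds_zero_nat
  have hlim1 : Tendsto (fun k : ℕ => 2 * (1 / ((k : ℝ) + 1))) atTop (𝓝 0) := by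
    simpa using hlim0.const_mul 2
  refine ⟨w, hw0, ?_, ?_⟩
  · rw [tendsto_iff_norm_sub_tendsto_zero]
    exact squeeze_zero (fun _ => norm_nonneg _) hw1 hlim0
  · rw [tendsto_iff_norm_sub_tendsto_zero]
    exact squeeze_zero (fun _ => norm_nonneg _) hw2 hlim1

/-- the a priori estimate on the graph -/
theorem gr_est {J : ℕ → S →ₗ[ℂ] S} (hJ : Smoothing ℂ J) (hc : SmoothingComm D J J)
    {N : ℕ} {ℓ : Fin N → S →L[ℂ] ℂ} {ℓ' : Fin N → Completion S →L[ℂ] ℂ}
    (hℓ : ∀ i (s : S), ℓ' i (s : Completion S) = ℓ i s) {lam K : ℝ}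
    (hest : ∀ v, P₁ v = v → lam * ‖v‖ ^ 2 ≤ ‖D v‖ ^ 2 + K * ∑ i, ‖ℓ i v‖ ^ 2)
    {x : Completion S × Completion S} (hx : x ∈ gr D P₀) :
    lam * ‖x.1‖ ^ 2 ≤ ‖x.2‖ ^ 2 + K * ∑ i, ‖ℓ' i x.1‖ ^ 2 := by
  obtain ⟨w, w0, w1, w2⟩ := h.gr_approx hJ hc hx
  have t1 : Tendsto (fun k => lam * ‖((w k : S) : Completion S)‖ ^ 2) atTop
      (𝓝 (lam * ‖x.1‖ ^ 2)) := (w1.norm.pow 2).const_mul _
  have t2 : Tendsto (fun k => ‖((D (w k) : S) : Completion S)‖ ^ 2
      + K * ∑ i, ‖ℓ' i ((w k : S) : Completion S)‖ ^ 2) atTop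
      (𝓝 (‖x.2‖ ^ 2 + K * ∑ i, ‖ℓ' i x.1‖ ^ 2)) := by
    refine (w2.norm.pow 2).add ((tendsto_finsetSum _ fun i _ => ?_).const_mul _)
    exact (((ℓ' i).continuous.tendsto _).comp w1).norm.pow 2
  refine le_of_tendsto_of_tendsto' t1 t2 fun k => ?_
  rw [Completion.norm_coe, Completion.norm_coe]
  simp only [hℓ]
  exact hest (w k) (w0 k)

end AH

/-- a linear map whose kernel has finite codimension -/
theorem range_finrank {V W : Type*} [AddCommGroup V] [Module ℂ V] [AddCommGroup W] [Module ℂ W]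
    {N : ℕ} (L : V →ₗ[ℂ] (Fin N → ℂ)) (q : V →ₗ[ℂ] W) (hk : LinearMap.ker L ≤ LinearMap.ker q) :
    FiniteDimensional ℂ (LinearMap.range q) ∧ finrank ℂ (LinearMap.range q) ≤ N := by
  set q' : LinearMap.range L →ₗ[ℂ] W :=
    ((LinearMap.ker L).liftQ q hk) ∘ₗ (LinearMap.quotKerEquivRange L).symm.toLinearMap with hq'
  have hr : LinearMap.range q ≤ LinearMap.range q' := by
    rintro _ ⟨v, rfl⟩
    refine ⟨⟨L v, LinearMap.mem_range_self _ v⟩, ?_⟩
    have h1 : (LinearMap.quotKerEquivRange L).symm ⟨L v, LinearMap.mem_range_self _ v⟩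
        = (LinearMap.ker L).mkQ v := by
      rw [LinearEquiv.symm_apply_eq]
      rfl
    rw [hq', LinearMap.comp_apply, LinearEquiv.coe_toLinearMap, h1]
    simp
  have hf : FiniteDimensional ℂ (LinearMap.range q') := inferInstance
  refine ⟨Submodule.finiteDimensional_of_le hr, ?_⟩
  calc finrank ℂ (LinearMap.range q) ≤ finrank ℂ (LinearMap.range q') :=
        Submodule.finrank_mono hr
    _ ≤ finrank ℂ (LinearMap.range L) := LinearMap.finrank_range_le _
    _ ≤ finrank ℂ (Fin N → ℂ) := Submodule.finrank_le _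
    _ = N := by simp

/-- **AB**: the abstract index type lemma -/
theorem ab {D P₀ P₁ P₂ : S →ₗ[ℂ] S} (h : AH D P₀ P₁ P₂) {J : ℕ → S →ₗ[ℂ] S}
    (hJ : Smoothing ℂ J) (hc : SmoothingComm D J J)
    (hreg : ∀ w : ℕ → S, (∀ n, P₀ (w n) = w n) → CauchySeq w →
      Tendsto (fun n => D (w n)) atTop (𝓝 0) → ∃ s, Tendsto w atTop (𝓝 s))
    {N : ℕ} (ℓ : Fin N → S →L[ℂ] ℂ) {lam mu K : ℝ} (hlam : 0 < lam) (hmu : mu < lam)
    (hest : ∀ v, P₁ v = v → lam * ‖v‖ ^ 2 ≤ ‖D v‖ ^ 2 + K * ∑ i, ‖ℓ i v‖ ^ 2)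
    (W : Submodule ℂ S) (hWf : FiniteDimensional ℂ W) (hW0 : ∀ u ∈ W, P₀ u = u)
    (hW : ∀ u ∈ W, ‖D u‖ ^ 2 ≤ mu * ‖u‖ ^ 2) :
    ∃ K' : Submodule ℂ S, FiniteDimensional ℂ K' ∧ (∀ u ∈ K', P₀ u = u ∧ D u = 0) ∧
      finrank ℂ W ≤ finrank ℂ K' + N := by
  classical
  set Z : Submodule ℂ S := LinearMap.ker D ⊓ fixP P₀ with hZ
  have hZm : ∀ u, u ∈ Z ↔ D u = 0 ∧ P₀ u = u := fun u => Iff.rfl
  by_cases hfin : FiniteDimensional ℂ Z
  swap
  · -- the kernel has infinite dimension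
    have h1 : Cardinal.aleph0 ≤ Module.rank ℂ Z := by
      rw [← not_lt, Module.rank_lt_aleph0_iff]
      exact hfin
    have h2 : ((finrank ℂ W : ℕ) : Cardinal) ≤ Module.rank ℂ Z :=
      (Cardinal.natCast_lt_aleph0 (n := finrank ℂ W)).le.trans h1
    obtain ⟨s, hs, hli⟩ := le_rank_iff_exists_linearIndependent_finset.1 h2
    set T : Submodule ℂ Z := Submodule.span ℂ (s : Set Z) with hT
    have hTf : FiniteDimensional ℂ T := FiniteDimensional.span_of_finite ℂ s.finite_toSet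
    have hTr : finrank ℂ T = finrank ℂ W := by
      rw [← hs]
      have := finrank_span_finset_eq_card (R := ℂ) (s := s) hli
      exact this
    refine ⟨T.map Z.subtype, inferInstance, ?_, ?_⟩
    · rintro _ ⟨u, _, rfl⟩
      exact ⟨u.2.2, u.2.1⟩
    · have hm : finrank ℂ (T.map Z.subtype) = finrank ℂ T :=
        (Submodule.equivMapOfInjective Z.subtype Z.injective_subtype T).finrank_eq.symm
      rw [hm, hTr]
      omega
  · refine ⟨Z, hfin, fun u hu => ⟨hu.2, hu.1⟩, ?_⟩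
    by_contra hlt
    rw [not_le] at hlt
    -- extension of the functionals
    have hex : ∀ i, ∃ ℓ' : Completion S →L[ℂ] ℂ, ∀ s : S, ℓ' (s : Completion S) = ℓ i s := by
      intro i
      refine ⟨(ℓ i).extend (Completion.toComplL (𝕜 := ℂ) (E := S)), fun s => ?_⟩
      exact ContinuousLinearMap.extend_eq (ℓ i) Completion.denseRange_coe
        (Completion.isUniformInducing_coe S) s
    choose ℓ' hℓ using hex
    have hE := fun x hx => h.gr_est hJ hc hℓ hest (x := x) hx
    -- the part of the graph without conditions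
    set L : gr D P₀ →ₗ[ℂ] (Fin N → ℂ) :=
      LinearMap.pi fun i => (ℓ' i : Completion S →ₗ[ℂ] ℂ) ∘ₗ LinearMap.fst ℂ _ _ ∘ₗ
        (gr D P₀).subtype with hL
    set G₁ : Submodule ℂ (Completion S × Completion S) :=
      (gr D P₀) ⊓ LinearMap.ker (LinearMap.pi fun i =>
        (ℓ' i : Completion S →ₗ[ℂ] ℂ) ∘ₗ LinearMap.fst ℂ (Completion S) (Completion S)) with hG₁
    have hG₁m : ∀ x, x ∈ G₁ ↔ x ∈ gr D P₀ ∧ ∀ i, ℓ' i x.1 = 0 := by
      intro x
      rw [hG₁, Submodule.mem_inf, LinearMap.mem_ker]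
      refine and_congr_right fun _ => ?_
      constructor
      · intro hx i
        exact congrFun hx i
      · intro hx
        ext i
        exact hx i
    have hG₁c : IsClosed (G₁ : Set (Completion S × Completion S)) := by
      have : (G₁ : Set (Completion S × Completion S)) = (gr D P₀ : Set _) ∩
          ⋂ i, {x | ℓ' i x.1 = 0} := by
        ext x
        simp only [SetLike.mem_coe, Set.mem_inter_iff, Set.mem_iInter, Set.mem_ofPred_eq]
        exact hG₁m x
      rw [this]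
      refine (gr_closed D P₀).inter (isClosed_iInter fun i => ?_)
      exact isClosed_eq ((ℓ' i).continuous.comp continuous_fst) continuous_const
    have hG₁e : ∀ x ∈ G₁, lam * ‖x.1‖ ^ 2 ≤ ‖x.2‖ ^ 2 := by
      intro x hx
      have h1 := (hG₁m x).1 hx
      have h2 := hE x h1.1
      simpa [h1.2] using h2
    -- its second projection is closed
    set A₁ : Submodule ℂ (Completion S) := G₁.map (LinearMap.snd ℂ _ _) with hA₁
    have hA₁c : IsClosed (A₁ : Set (Completion S)) := by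
      have hcomp : CompleteSpace G₁ := hG₁c.completeSpace_coe
      set C : NNReal := ⟨1 + (√lam)⁻¹, by positivity⟩ with hC
      have hanti : AntilipschitzWith C (fun x : G₁ => (x : Completion S × Completion S).2) := by
        refine AntilipschitzWith.of_le_mul_dist fun x y => ?_
        have hxy : ((x : Completion S × Completion S) - y) ∈ G₁ := G₁.sub_mem x.2 y.2
        have h1 := hG₁e _ hxy
        rw [Subtype.dist_eq, dist_eq_norm, dist_eq_norm]
        set z := (x : Completion S × Completion S) - y with hz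
        have hz2 : (x : Completion S × Completion S).2 - (y : Completion S × Completion S).2 = z.2 := rfl
        rw [hz2, Prod.norm_def]
        have hl0 : 0 < √lam := Real.sqrt_pos.2 hlam
        have h2 : √lam * ‖z.1‖ ≤ ‖z.2‖ := by
          refine (sq_le_sq₀ (by positivity) (norm_nonneg _)).1 ?_
          rw [mul_pow, Real.sq_sqrt hlam.le]
          exact h1
        have h3 : ‖z.1‖ ≤ (√lam)⁻¹ * ‖z.2‖ := by
          rw [← div_eq_inv_mul, le_div_iff₀ hl0]
          linarith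
        have h4 : (C : ℝ) * ‖z.2‖ = ‖z.2‖ + (√lam)⁻¹ * ‖z.2‖ := by
          rw [hC]
          show (1 + (√lam)⁻¹) * ‖z.2‖ = _
          ring
        rw [h4]
        have h5 : 0 ≤ (√lam)⁻¹ * ‖z.2‖ := by positivity
        exact max_le (by linarith [norm_nonneg z.2]) (by linarith)
      have huc : UniformContinuous (fun x : G₁ => (x : Completion S × Completion S).2) :=
        uniformContinuous_snd.comp uniformContinuous_subtype_val
      have h1 := hanti.isClosed_range huc
      have h2 : (A₁ : Set (Completion S)) = Set.range fun x : G₁ => (x : Completion S × Completion S).2 := by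
        ext y
        constructor
        · rintro ⟨x, hx, rfl⟩
          exact ⟨⟨x, hx⟩, rfl⟩
        · rintro ⟨x, rfl⟩
          exact ⟨x, x.2, rfl⟩
      rw [h2]
      exact h1
    have hA₁complete : CompleteSpace A₁ := hA₁c.completeSpace_coe
    -- the projection to the orthogonal complement
    set q : Completion S →L[ℂ] Completion S :=
      ContinuousLinearMap.id ℂ _ - A₁.starProjection with hq
    have hq0 : ∀ y, q y = 0 ↔ y ∈ A₁ := by
      intro y
      rw [hq]
      simp only [sub_apply, ContinuousLinearMap.id_apply, sub_eq_zero]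
      rw [eq_comm]
      exact Submodule.starProjection_eq_self_iff
    set q₂ : gr D P₀ →ₗ[ℂ] Completion S :=
      (q : Completion S →ₗ[ℂ] Completion S) ∘ₗ LinearMap.snd ℂ _ _ ∘ₗ (gr D P₀).subtype with hq₂
    obtain ⟨hYf, hYr⟩ := range_finrank L q₂ (by
      intro x hx
      rw [LinearMap.mem_ker] at hx ⊢
      show q (x : Completion S × Completion S).2 = 0
      rw [hq0]
      exact ⟨x, (hG₁m _).2 ⟨x.2, fun i => congrFun hx i⟩, rfl⟩)
    set Y := LinearMap.range q₂ with hY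
    have hYc : IsClosed (Y : Set (Completion S)) := Submodule.closed_of_finiteDimensional Y
    -- `q f ∈ Y` for `f` orthogonal to the kernel
    have hqY : ∀ f : S, P₀ f = f → (∀ z ∈ Z, inner ℂ z f = 0) → q (f : Completion S) ∈ Y := by
      intro f hf hfZ
      have h1 := h.mem_of_orth hJ hc hreg hf (fun z hz1 hz2 => hfZ z ⟨hz2, hz1⟩)
      refine cls_induction (p := fun y => q y ∈ Y) (hYc.preimage q.continuous) ?_ h1
      rintro _ ⟨v, _, rfl⟩
      obtain ⟨x, hx, hx2⟩ := h.exists_gr (v := v)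
      refine ⟨⟨x, hx⟩, ?_⟩
      show q x.2 = _
      rw [hx2]
      rfl
    -- counting
    have hZp : Z.HasOrthogonalProjection := inferInstance
    set π : W →ₗ[ℂ] Z := (Z.orthogonalProjectionOnto : S →ₗ[ℂ] Z) ∘ₗ W.subtype with hπ
    have hrn := LinearMap.finrank_range_add_finrank_ker π
    have hle : finrank ℂ (LinearMap.range π) ≤ finrank ℂ Z := Submodule.finrank_le _
    have hker : N < finrank ℂ (LinearMap.ker π) := by omega
    have hkZ : ∀ u : LinearMap.ker π, ∀ z ∈ Z, inner ℂ z ((u : W) : S) = 0 := by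
      intro u z hz
      have h1 : Z.orthogonalProjectionOnto ((u : W) : S) = 0 := u.2
      have h2 : ((u : W) : S) ∈ Zᗮ := (Submodule.orthogonalProjectionOnto_eq_zero_iff).1 h1
      exact h2 z hz
    set Θ : LinearMap.ker π →ₗ[ℂ] Y := LinearMap.codRestrict Y
      ((q : Completion S →ₗ[ℂ] Completion S) ∘ₗ ι S ∘ₗ W.subtype ∘ₗ (LinearMap.ker π).subtype)
      (fun u => hqY _ (hW0 _ (u : W).2) (hkZ u)) with hΘ
    have hne : LinearMap.ker Θ ≠ ⊥ := LinearMap.ker_ne_bot_of_finrank_lt (by omega)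
    obtain ⟨u, hu, hu0⟩ := Submodule.exists_mem_ne_zero_of_ne_bot hne
    set f : S := ((u : W) : S) with hf
    have hf0 : f ≠ 0 := by
      intro h0
      apply hu0
      ext
      exact h0
    have hqf : q (f : Completion S) = 0 := by
      have h1 : Θ u = 0 := hu
      have h2 := congrArg (fun y : Y => (y : Completion S)) h1
      exact h2
    obtain ⟨x, hx, hx2⟩ := (hq0 _).1 hqf
    have hx2' : x.2 = (f : Completion S) := hx2
    have h1 := hG₁e x hx
    have h2 := ((hG₁m x).1 hx).1.2.2 f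
    rw [hx2', Completion.norm_coe] at h1
    rw [hx2'] at h2
    have hfW : f ∈ W := (u : W).2
    have h3 := hW f hfW
    have hfp : 0 < ‖f‖ ^ 2 := by positivity
    have h4 : ‖f‖ ^ 2 ≤ ‖D f‖ * ‖x.1‖ := by
      have h5 : ‖inner ℂ (f : Completion S) (f : Completion S)‖ = ‖f‖ ^ 2 := by
        rw [inner_self_eq_norm_sq_to_K, norm_pow, RCLike.norm_ofReal, abs_norm,
          Completion.norm_coe]
      rw [← h5, ← h2]
      refine (norm_inner_le_norm _ _).trans ?_
      rw [Completion.norm_coe]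
    have h5 : (‖f‖ ^ 2) ^ 2 ≤ ‖D f‖ ^ 2 * ‖x.1‖ ^ 2 := by
      rw [← mul_pow]
      exact pow_le_pow_left₀ (by positivity) h4 2
    have h6 : lam * (‖f‖ ^ 2) ^ 2 ≤ mu * ‖f‖ ^ 2 * ‖f‖ ^ 2 := by
      calc lam * (‖f‖ ^ 2) ^ 2 ≤ lam * (‖D f‖ ^ 2 * ‖x.1‖ ^ 2) :=
            mul_le_mul_of_nonneg_left h5 hlam.le
        _ = ‖D f‖ ^ 2 * (lam * ‖x.1‖ ^ 2) := by ring
        _ ≤ (mu * ‖f‖ ^ 2) * ‖f‖ ^ 2 :=
            mul_le_mul h3 h1 (by positivity) ((sq_nonneg _).trans h3)
        _ = _ := by ring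
    have h7 : mu * ‖f‖ ^ 2 * ‖f‖ ^ 2 < lam * (‖f‖ ^ 2) ^ 2 := by
      calc mu * ‖f‖ ^ 2 * ‖f‖ ^ 2 = mu * (‖f‖ ^ 2) ^ 2 := by ring
        _ < lam * (‖f‖ ^ 2) ^ 2 := mul_lt_mul_of_pos_right hmu (by positivity)
    linarith

end

end Vale.Agent.P284.H924
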